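import Vale.Agent.P043.T2.FinDefs

/-! # P043 in the plane: the finite checks FD0 - FD3 (second copies) -/

namespace Vale.Agent.P043.T2.H967

/-- decidability of unique existence on a finite type -/
@[instance_reducible] def decEU {α : Type} [Fintype α] [DecidableEq α] (p : α → Prop) [DecidablePred p] :
    Decidable (∃! x, p x) :=
  inferInstanceAs (Decidable (∃ x, p x ∧ ∀ y, p y → y = x))

attribute [local instance] decEU

theorem st_FD1 : StFD1 := by
  unfold StFD1
  decide +kernel

theorem st_FD2 : StFD2 := by
  unfold StFD2
  decide +kernel

theorem st_FD0 : StFD0 := by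
  unfold StFD0
  decide +kernel

end Vale.Agent.P043.T2.H967
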